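import Vale.Agent.Lib.P356b.Poly

/-!
# P356: configurations, local operators, and the matrix of a vector with respect to a bipartition
-/

namespace Vale.Agent.Lib.P356b

open Matrix Polynomial

set_option linter.unusedSectionVars false

/-- configurations of a system of `q`-level sites -/
abbrev Conf (Λ : Type) (q : ℕ) : Type := Λ → Fin q

/-- operators on `⨂_{x ∈ Λ} ℂ^q`, as matrices in the product basis -/
abbrev Op (Λ : Type) (q : ℕ) : Type := Matrix (Conf Λ q) (Conf Λ q) ℂ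

variable {Λ : Type} [Fintype Λ] [DecidableEq Λ] {q : ℕ}

/-- `O` acts on the tensor factors in `X` and as the identity elsewhere: the entry `O σ τ` vanishes
unless `σ = τ` outside `X`, and then it depends only on the restrictions of `σ`, `τ` to `X` -/
def SupportedOn (X : Finset Λ) (O : Op Λ q) : Prop :=
  (∀ σ τ : Conf Λ q, (∃ x, x ∉ X ∧ σ x ≠ τ x) → O σ τ = 0) ∧
  (∀ σ τ σ' τ' : Conf Λ q, (∀ x ∈ X, σ x = σ' x ∧ τ x = τ' x) → (∀ x, x ∉ X → σ x = τ x) →
    (∀ x, x ∉ X → σ' x = τ' x) → O σ τ = O σ' τ')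

theorem SupportedOn.mono {X Y : Finset Λ} {O : Op Λ q} (h : SupportedOn X O) (hXY : X ⊆ Y) :
    SupportedOn Y O := by
  refine ⟨fun σ τ ⟨x, hx, hne⟩ => h.1 σ τ ⟨x, fun hxX => hx (hXY hxX), hne⟩, ?_⟩
  intro σ τ σ' τ' h1 h2 h3
  by_cases hc : ∀ x, x ∉ X → σ x = τ x
  · refine h.2 σ τ σ' τ' (fun x hx => h1 x (hXY hx)) hc ?_
    intro x hx
    by_cases hxY : x ∈ Y
    · rw [← (h1 x hxY).1, ← (h1 x hxY).2]
      exact hc x hx
    · exact h3 x hxY
  · push Not at hc
    obtain ⟨x, hx, hne⟩ := hc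
    have hxY : x ∈ Y := by
      by_contra hxY
      exact hne (h2 x hxY)
    rw [h.1 σ τ ⟨x, hx, hne⟩, h.1 σ' τ' ⟨x, hx, by rw [← (h1 x hxY).1, ← (h1 x hxY).2]; exact hne⟩]

theorem SupportedOn.zero (X : Finset Λ) : SupportedOn X (0 : Op Λ q) :=
  ⟨fun _ _ _ => rfl, fun _ _ _ _ _ _ _ => rfl⟩

theorem SupportedOn.add {X : Finset Λ} {O O' : Op Λ q} (h : SupportedOn X O)
    (h' : SupportedOn X O') : SupportedOn X (O + O') := by
  refine ⟨fun σ τ hx => ?_, fun σ τ σ' τ' h1 h2 h3 => ?_⟩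
  · rw [Matrix.add_apply, h.1 σ τ hx, h'.1 σ τ hx, add_zero]
  · rw [Matrix.add_apply, Matrix.add_apply, h.2 σ τ σ' τ' h1 h2 h3, h'.2 σ τ σ' τ' h1 h2 h3]

theorem SupportedOn.sum {κ : Type*} {X : Finset Λ} (s : Finset κ) (O : κ → Op Λ q)
    (h : ∀ i ∈ s, SupportedOn X (O i)) : SupportedOn X (∑ i ∈ s, O i) := by
  classical
  induction s using Finset.induction_on with
  | empty => simpa using SupportedOn.zero X
  | insert a s ha ih =>
    rw [Finset.sum_insert ha]
    exact (h a (Finset.mem_insert_self a s)).add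
      (ih fun i hi => h i (Finset.mem_insert_of_mem hi))

/-- the configuration equal to `α` on `A` and to `β` outside -/
def glue (A : Finset Λ) (α : {x // x ∈ A} → Fin q) (β : {x // x ∉ A} → Fin q) : Conf Λ q :=
  fun x => if h : x ∈ A then α ⟨x, h⟩ else β ⟨x, h⟩

theorem glue_mem (A : Finset Λ) (α : {x // x ∈ A} → Fin q) (β : {x // x ∉ A} → Fin q) {x : Λ}
    (h : x ∈ A) : glue A α β x = α ⟨x, h⟩ := dif_pos h

theorem glue_not_mem (A : Finset Λ) (α : {x // x ∈ A} → Fin q) (β : {x // x ∉ A} → Fin q) {x : Λ}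
    (h : x ∉ A) : glue A α β x = β ⟨x, h⟩ := dif_neg h

theorem sum_glue (A : Finset Λ) (F : Conf Λ q → ℂ) :
    ∑ τ, F τ = ∑ α, ∑ β, F (glue A α β) := by
  rw [← (Equiv.piEquivPiSubtypeProd (fun x => x ∈ A) (fun _ => Fin q)).symm.sum_comp,
    Fintype.sum_prod_type]
  rfl

/-- the matrix of the vector `ψ` with respect to the bipartition `A`, complement of `A` -/
def bmat (A : Finset Λ) (ψ : Conf Λ q → ℂ) :
    Matrix ({x // x ∈ A} → Fin q) ({x // x ∉ A} → Fin q) ℂ :=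
  Matrix.of fun α β => ψ (glue A α β)

theorem bmat_apply (A : Finset Λ) (ψ : Conf Λ q → ℂ) (α : {x // x ∈ A} → Fin q)
    (β : {x // x ∉ A} → Fin q) : bmat A ψ α β = ψ (glue A α β) := rfl

theorem bmat_add (A : Finset Λ) (ψ φ : Conf Λ q → ℂ) : bmat A (ψ + φ) = bmat A ψ + bmat A φ := rfl

theorem bmat_smul (A : Finset Λ) (c : ℂ) (ψ : Conf Λ q → ℂ) : bmat A (c • ψ) = c • bmat A ψ := rfl

/-- an operator on `A` acts by left multiplication -/
theorem bmat_left [NeZero q] (A : Finset Λ) (O : Op Λ q) (hO : SupportedOn A O) :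
    ∃ G : Matrix ({x // x ∈ A} → Fin q) ({x // x ∈ A} → Fin q) ℂ,
      ∀ ψ : Conf Λ q → ℂ, bmat A (O *ᵥ ψ) = G * bmat A ψ := by
  refine ⟨Matrix.of fun α α' => O (glue A α fun _ => 0) (glue A α' fun _ => 0), fun ψ => ?_⟩
  ext α β
  rw [Matrix.mul_apply, bmat_apply, Matrix.mulVec, dotProduct, sum_glue A]
  refine Finset.sum_congr rfl fun α' _ => ?_
  rw [Matrix.of_apply, bmat_apply, Finset.sum_eq_single β]
  · congr 1
    refine hO.2 _ _ _ _ (fun x hx => ?_) (fun x hx => ?_) (fun x hx => ?_)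
    · simp only [glue_mem A _ _ hx, and_self]
    · simp only [glue_not_mem A _ _ hx]
    · simp only [glue_not_mem A _ _ hx]
  · intro β' _ hne
    have : ∃ x, β x ≠ β' x := by
      by_contra hcon
      push Not at hcon
      exact hne (funext fun x => (hcon x).symm)
    obtain ⟨x, hx⟩ := this
    rw [hO.1 _ _ ⟨x.1, x.2, by rw [glue_not_mem A _ _ x.2, glue_not_mem A _ _ x.2]; exact hx⟩,
      zero_mul]
  · intro h
    exact absurd (Finset.mem_univ β) h

/-- an operator on the complement of `A` acts by right multiplication -/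
theorem bmat_right [NeZero q] (A : Finset Λ) (O : Op Λ q) (hO : SupportedOn Aᶜ O) :
    ∃ G : Matrix ({x // x ∉ A} → Fin q) ({x // x ∉ A} → Fin q) ℂ,
      ∀ ψ : Conf Λ q → ℂ, bmat A (O *ᵥ ψ) = bmat A ψ * G := by
  refine ⟨Matrix.of fun β' β => O (glue A (fun _ => 0) β) (glue A (fun _ => 0) β'), fun ψ => ?_⟩
  ext α β
  rw [Matrix.mul_apply, bmat_apply, Matrix.mulVec, dotProduct, sum_glue A, Finset.sum_eq_single α]
  · refine Finset.sum_congr rfl fun β' _ => ?_
    rw [Matrix.of_apply, bmat_apply, mul_comm]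
    congr 1
    refine hO.2 _ _ _ _ (fun x hx => ?_) (fun x hx => ?_) (fun x hx => ?_)
    · have hx' : x ∉ A := Finset.mem_compl.1 hx
      simp only [glue_not_mem A _ _ hx', and_self]
    · have hx' : x ∈ A := by simpa using hx
      simp only [glue_mem A _ _ hx']
    · have hx' : x ∈ A := by simpa using hx
      simp only [glue_mem A _ _ hx']
  · intro α' _ hne
    have : ∃ x, α x ≠ α' x := by
      by_contra hcon
      push Not at hcon
      exact hne (funext fun x => (hcon x).symm)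
    obtain ⟨x, hx⟩ := this
    refine Finset.sum_eq_zero fun β' _ => ?_
    rw [hO.1 _ _ ⟨x.1, by simpa using x.2,
      by rw [glue_mem A _ _ x.2, glue_mem A _ _ x.2]; exact hx⟩, zero_mul]
  · intro h
    exact absurd (Finset.mem_univ α) h

theorem rank_bmat_aeval_left [NeZero q] (A : Finset Λ) (O : Op Λ q) (hO : SupportedOn A O)
    (g : ℂ[X]) (ψ : Conf Λ q → ℂ) : (bmat A ((aeval O g) *ᵥ ψ)).rank ≤ (bmat A ψ).rank := by
  obtain ⟨G, hG⟩ := bmat_left A O hO
  have hpow : ∀ k : ℕ, ∀ ψ : Conf Λ q → ℂ, bmat A ((O ^ k) *ᵥ ψ) = G ^ k * bmat A ψ := by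
    intro k
    induction k with
    | zero => intro ψ; simp
    | succ k ih =>
      intro ψ
      rw [pow_succ', ← Matrix.mulVec_mulVec, hG, ih, pow_succ', Matrix.mul_assoc]
  have key : ∀ g : ℂ[X], ∃ G' : Matrix ({x // x ∈ A} → Fin q) ({x // x ∈ A} → Fin q) ℂ,
      ∀ ψ : Conf Λ q → ℂ, bmat A ((aeval O g) *ᵥ ψ) = G' * bmat A ψ := by
    intro g
    induction g using Polynomial.induction_on' with
    | add p r hp hr =>
      obtain ⟨G1, h1⟩ := hp
      obtain ⟨G2, h2⟩ := hr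
      refine ⟨G1 + G2, fun ψ => ?_⟩
      rw [map_add, Matrix.add_mulVec, bmat_add, h1, h2, Matrix.add_mul]
    | monomial k a =>
      refine ⟨a • G ^ k, fun ψ => ?_⟩
      rw [aeval_monomial, Algebra.algebraMap_eq_smul_one, Matrix.smul_mul, one_mul,
        Matrix.smul_mulVec, bmat_smul, hpow, Matrix.smul_mul]
  obtain ⟨G', hG'⟩ := key g
  rw [hG']
  exact Matrix.rank_mul_le_right _ _

theorem rank_bmat_aeval_right [NeZero q] (A : Finset Λ) (O : Op Λ q) (hO : SupportedOn Aᶜ O)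
    (g : ℂ[X]) (ψ : Conf Λ q → ℂ) : (bmat A ((aeval O g) *ᵥ ψ)).rank ≤ (bmat A ψ).rank := by
  obtain ⟨G, hG⟩ := bmat_right A O hO
  have hpow : ∀ k : ℕ, ∀ ψ : Conf Λ q → ℂ, bmat A ((O ^ k) *ᵥ ψ) = bmat A ψ * G ^ k := by
    intro k
    induction k with
    | zero => intro ψ; simp
    | succ k ih =>
      intro ψ
      rw [pow_succ', ← Matrix.mulVec_mulVec, hG, ih, pow_succ, Matrix.mul_assoc]
  have key : ∀ g : ℂ[X], ∃ G' : Matrix ({x // x ∉ A} → Fin q) ({x // x ∉ A} → Fin q) ℂ,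
      ∀ ψ : Conf Λ q → ℂ, bmat A ((aeval O g) *ᵥ ψ) = bmat A ψ * G' := by
    intro g
    induction g using Polynomial.induction_on' with
    | add p r hp hr =>
      obtain ⟨G1, h1⟩ := hp
      obtain ⟨G2, h2⟩ := hr
      refine ⟨G1 + G2, fun ψ => ?_⟩
      rw [map_add, Matrix.add_mulVec, bmat_add, h1, h2, Matrix.mul_add]
    | monomial k a =>
      refine ⟨a • G ^ k, fun ψ => ?_⟩
      rw [aeval_monomial, Algebra.algebraMap_eq_smul_one, Matrix.smul_mul, one_mul,
        Matrix.smul_mulVec, bmat_smul, hpow, Matrix.mul_smul]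
  obtain ⟨G', hG'⟩ := key g
  rw [hG']
  exact Matrix.rank_mul_le_left _ _

end Vale.Agent.Lib.P356b
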