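import Mathlib

/-!
# P356: the von Neumann entropy of `M Mᴴ` is at most the logarithm of the rank of `M`
-/

namespace Vale.Agent.Lib.P356b

open Matrix Finset
open scoped ComplexOrder

/-- Jensen: nonnegative numbers of sum one, at most `r` of them non-zero -/
theorem sum_negMulLog_le {ι : Type*} [Fintype ι] [DecidableEq ι] (lam : ι → ℝ)
    (h0 : ∀ i, 0 ≤ lam i) (h1 : ∑ i, lam i = 1) (r : ℕ)
    (hr : (univ.filter fun i => lam i ≠ 0).card ≤ r) :
    ∑ i, Real.negMulLog (lam i) ≤ Real.log r := by
  set S := univ.filter fun i => lam i ≠ 0 with hS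
  have hsum : ∑ i ∈ S, lam i = 1 := by
    rw [← h1, hS, Finset.sum_filter]
    refine Finset.sum_congr rfl fun i _ => ?_
    by_cases h : lam i = 0
    · simp [h]
    · simp [h]
  have hsum2 : ∑ i, Real.negMulLog (lam i) = ∑ i ∈ S, Real.negMulLog (lam i) := by
    rw [hS, Finset.sum_filter]
    refine Finset.sum_congr rfl fun i _ => ?_
    by_cases h : lam i = 0
    · simp [h]
    · simp [h]
  have hSne : S.Nonempty := by
    by_contra hemp
    rw [Finset.not_nonempty_iff_eq_empty] at hemp
    rw [hemp] at hsum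
    simp at hsum
  have hc : 0 < S.card := Finset.card_pos.2 hSne
  have hcr : (0 : ℝ) < (S.card : ℝ) := by exact_mod_cast hc
  have hJ := Real.concaveOn_negMulLog.le_map_sum (t := S) (w := fun _ => 1 / (S.card : ℝ))
    (p := lam) (fun i _ => by positivity)
    (by rw [Finset.sum_const, nsmul_eq_mul]; field_simp) (fun i _ => h0 i)
  simp only [smul_eq_mul] at hJ
  rw [← Finset.mul_sum, ← Finset.mul_sum, hsum, mul_one] at hJ
  have hval : Real.negMulLog (1 / (S.card : ℝ)) = 1 / (S.card : ℝ) * Real.log (S.card : ℝ) := by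
    rw [Real.negMulLog, one_div, Real.log_inv]
    ring
  rw [hval] at hJ
  have h2 : ∑ i ∈ S, Real.negMulLog (lam i) ≤ Real.log (S.card : ℝ) := by
    have := mul_le_mul_of_nonneg_left hJ hcr.le
    rw [← mul_assoc, ← mul_assoc, mul_one_div_cancel hcr.ne', one_mul, one_mul] at this
    exact this
  rw [hsum2]
  exact h2.trans (Real.log_le_log hcr (by exact_mod_cast hr))

variable {m n : Type*} [Fintype m] [Fintype n] [DecidableEq m]

/-- the von Neumann entropy of the positive matrix `M Mᴴ` -/
noncomputable def entropyOf (M : Matrix m n ℂ) : ℝ :=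
  ∑ i, Real.negMulLog ((isHermitian_mul_conjTranspose_self M).eigenvalues i)

theorem entropyOf_le (M : Matrix m n ℂ) (hM : ∑ a, ∑ b, ‖M a b‖ ^ 2 = 1) (r : ℕ)
    (hr : M.rank ≤ r) : entropyOf M ≤ Real.log r := by
  classical
  set hH := isHermitian_mul_conjTranspose_self M with hHdef
  have hpos : (M * Mᴴ).PosSemidef := posSemidef_self_mul_conjTranspose M
  unfold entropyOf
  refine sum_negMulLog_le _ (fun i => hpos.eigenvalues_nonneg i) ?_ r ?_
  · have htr := hH.trace_eq_sum_eigenvalues
    have h2 : (M * Mᴴ).trace = ((∑ a, ∑ b, ‖M a b‖ ^ 2 : ℝ) : ℂ) := by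
      rw [Matrix.trace]
      push_cast
      refine Finset.sum_congr rfl fun a _ => ?_
      rw [Matrix.diag_apply, Matrix.mul_apply]
      refine Finset.sum_congr rfl fun b _ => ?_
      rw [Matrix.conjTranspose_apply, Complex.star_def, Complex.mul_conj, Complex.normSq_eq_norm_sq]
      push_cast
      rfl
    rw [h2, hM] at htr
    have h4 : ((∑ i, hH.eigenvalues i : ℝ) : ℂ) = ((1 : ℝ) : ℂ) := by
      rw [htr]
      push_cast
      rfl
    exact Complex.ofReal_injective h4
  · have h3 := hH.rank_eq_card_non_zero_eigs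
    rw [rank_self_mul_conjTranspose] at h3
    rw [← Fintype.card_subtype, ← h3]
    exact hr

end Vale.Agent.Lib.P356b
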