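import Vale.Agent.Lib.P356b.Main
import Vale.Agent.Lib.P356b.Entropy

/-!
# P356: commuting local Hamiltonians on a finite set of sites
-/

namespace Vale.Agent.Lib.P356b

open Matrix Polynomial

set_option linter.unusedSectionVars false

variable {Λ : Type} [Fintype Λ] [DecidableEq Λ] {q : ℕ}

theorem herm_sum {κ : Type*} (s : Finset κ) (O : κ → Op Λ q) (h : ∀ i ∈ s, (O i).IsHermitian) :
    (∑ i ∈ s, O i).IsHermitian := by
  rw [Matrix.IsHermitian, Matrix.conjTranspose_sum]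
  exact Finset.sum_congr rfl fun i hi => (h i hi).eq

theorem commute_sums {κ : Type*} (s t : Finset κ) (O : κ → Op Λ q)
    (h : ∀ i j, Commute (O i) (O j)) : Commute (∑ i ∈ s, O i) (∑ i ∈ t, O i) :=
  Commute.sum_left _ _ _ fun i _ => Commute.sum_right _ _ _ fun j _ => h i j

theorem rank_le_of_commuting [NeZero q] (h : Finset Λ → Op Λ q)
    (hherm : ∀ X, (h X).IsHermitian) (hsupp : ∀ X, SupportedOn X (h X))
    (hcomm : ∀ X Y, Commute (h X) (h Y))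
    (A B : Finset Λ) (hB : ∀ X, ¬ X ⊆ A → ¬ X ⊆ Aᶜ → h X ≠ 0 → X ⊆ B)
    (Ω : Conf Λ q → ℂ) (hΩ : Ω ≠ 0) (E0 : ℂ) (hE : (∑ X, h X) *ᵥ Ω = E0 • Ω)
    (hs : ∀ ψ : Conf Λ q → ℂ, (∑ X, h X) *ᵥ ψ = E0 • ψ → ∃ c : ℂ, ψ = c • Ω) :
    (bmat A Ω).rank ≤ q ^ (A ∩ B).card := by
  classical
  set S1 : Finset (Finset Λ) := Finset.univ.filter fun X => X ⊆ A with hS1
  set S0 : Finset (Finset Λ) := Finset.univ.filter fun X => ¬ X ⊆ A with hS0
  set S2 : Finset (Finset Λ) := S0.filter fun X => X ⊆ Aᶜ with hS2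
  set S3 : Finset (Finset Λ) := S0.filter fun X => ¬ X ⊆ Aᶜ with hS3
  have hsplit : ∑ X, h X = ∑ X ∈ S1, h X + ∑ X ∈ S2, h X + ∑ X ∈ S3, h X := by
    rw [add_assoc, hS2, hS3, Finset.sum_filter_add_sum_filter_not, hS1, hS0,
      Finset.sum_filter_add_sum_filter_not]
  rw [hsplit] at hE hs
  refine rank_le_of_three A B _ _ _ (herm_sum _ _ fun X _ => hherm X)
    (herm_sum _ _ fun X _ => hherm X) ?_ ?_ ?_ (commute_sums _ _ _ hcomm)
    (commute_sums _ _ _ hcomm) (commute_sums _ _ _ hcomm) Ω hΩ E0 hE hs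
  · refine SupportedOn.sum _ _ fun X hX => (hsupp X).mono ?_
    exact (Finset.mem_filter.1 hX).2
  · refine SupportedOn.sum _ _ fun X hX => (hsupp X).mono ?_
    exact (Finset.mem_filter.1 hX).2
  · refine SupportedOn.sum _ _ fun X hX => ?_
    have h2 := (Finset.mem_filter.1 hX).2
    have h1 := (Finset.mem_filter.1 (Finset.mem_filter.1 hX).1).2
    by_cases h0 : h X = 0
    · rw [h0]
      exact SupportedOn.zero B
    · exact (hsupp X).mono (hB X h1 h2 h0)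

theorem sum_glue_real (A : Finset Λ) (F : Conf Λ q → ℝ) :
    ∑ τ, F τ = ∑ α, ∑ β, F (glue A α β) := by
  rw [← (Equiv.piEquivPiSubtypeProd (fun x => x ∈ A) (fun _ => Fin q)).symm.sum_comp,
    Fintype.sum_prod_type]
  rfl

theorem entropy_le_of_commuting [NeZero q] (h : Finset Λ → Op Λ q)
    (hherm : ∀ X, (h X).IsHermitian) (hsupp : ∀ X, SupportedOn X (h X))
    (hcomm : ∀ X Y, Commute (h X) (h Y))
    (A B : Finset Λ) (hB : ∀ X, ¬ X ⊆ A → ¬ X ⊆ Aᶜ → h X ≠ 0 → X ⊆ B)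
    (Ω : Conf Λ q → ℂ) (hΩ : ∑ τ, ‖Ω τ‖ ^ 2 = 1) (E0 : ℂ) (hE : (∑ X, h X) *ᵥ Ω = E0 • Ω)
    (hs : ∀ ψ : Conf Λ q → ℂ, (∑ X, h X) *ᵥ ψ = E0 • ψ → ∃ c : ℂ, ψ = c • Ω) :
    entropyOf (bmat A Ω) ≤ ((A ∩ B).card : ℝ) * Real.log q := by
  have hne : Ω ≠ 0 := by
    intro h0
    rw [h0] at hΩ
    simp at hΩ
  have hr := rank_le_of_commuting h hherm hsupp hcomm A B hB Ω hne E0 hE hs
  have hM : ∑ a, ∑ b, ‖bmat A Ω a b‖ ^ 2 = 1 := by
    rw [← hΩ, sum_glue_real A]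
    rfl
  have := entropyOf_le (bmat A Ω) hM _ hr
  rwa [Nat.cast_pow, Real.log_pow] at this

end Vale.Agent.Lib.P356b
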