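import Vale.Agent.Lib.P356b.Decomp

/-!
# P356: operators with disjoint supports commute; cuts whose crossing terms commute with all terms
-/

namespace Vale.Agent.Lib.P356b

open Matrix Polynomial

set_option linter.unusedSectionVars false

variable {Λ : Type} [Fintype Λ] [DecidableEq Λ] {q : ℕ}

theorem commute_of_disjoint (A : Finset Λ) (O1 O2 : Op Λ q) (s1 : SupportedOn A O1)
    (s2 : SupportedOn Aᶜ O2) : Commute O1 O2 := by
  rw [Commute, SemiconjBy]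
  ext σ τ
  rw [Matrix.mul_apply, Matrix.mul_apply,
    Finset.sum_eq_single (fun x => if x ∈ A then τ x else σ x),
    Finset.sum_eq_single (fun x => if x ∈ A then σ x else τ x)]
  · rw [mul_comm]
    congr 1
    · refine s2.2 _ _ _ _ (fun x hx => ?_) (fun x hx => ?_) (fun x hx => ?_)
      · have hx' : x ∉ A := Finset.mem_compl.1 hx
        simp only [if_neg hx', and_self]
      · have hx' : x ∈ A := by simpa using hx
        simp only [if_pos hx']
      · have hx' : x ∈ A := by simpa using hx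
        simp only [if_pos hx']
    · refine s1.2 _ _ _ _ (fun x hx => ?_) (fun x hx => ?_) (fun x hx => ?_)
      · simp only [if_pos hx, and_self]
      · simp only [if_neg hx]
      · simp only [if_neg hx]
  · intro κ _ hne
    have : ∃ x, κ x ≠ if x ∈ A then σ x else τ x := by
      by_contra hcon
      push Not at hcon
      exact hne (funext hcon)
    obtain ⟨x, hx⟩ := this
    by_cases hxA : x ∈ A
    · rw [if_pos hxA] at hx
      rw [s2.1 σ κ ⟨x, by simpa using hxA, fun h => hx h.symm⟩, zero_mul]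
    · rw [if_neg hxA] at hx
      rw [s1.1 κ τ ⟨x, hxA, hx⟩, mul_zero]
  · intro h
    exact absurd (Finset.mem_univ _) h
  · intro κ _ hne
    have : ∃ x, κ x ≠ if x ∈ A then τ x else σ x := by
      by_contra hcon
      push Not at hcon
      exact hne (funext hcon)
    obtain ⟨x, hx⟩ := this
    by_cases hxA : x ∈ A
    · rw [if_pos hxA] at hx
      rw [s2.1 κ τ ⟨x, by simpa using hxA, hx⟩, mul_zero]
    · rw [if_neg hxA] at hx
      rw [s1.1 σ κ ⟨x, hxA, fun h => hx h.symm⟩, zero_mul]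
  · intro h
    exact absurd (Finset.mem_univ _) h

theorem rank_le_of_cut [NeZero q] (h : Finset Λ → Op Λ q)
    (hherm : ∀ X, (h X).IsHermitian) (hsupp : ∀ X, SupportedOn X (h X))
    (A B : Finset Λ)
    (hcomm : ∀ X Y, ¬ X ⊆ A → ¬ X ⊆ Aᶜ → Commute (h X) (h Y))
    (hB : ∀ X, ¬ X ⊆ A → ¬ X ⊆ Aᶜ → h X ≠ 0 → X ⊆ B)
    (Ω : Conf Λ q → ℂ) (hΩ : Ω ≠ 0) (E0 : ℂ) (hE : (∑ X, h X) *ᵥ Ω = E0 • Ω)
    (hs : ∀ ψ : Conf Λ q → ℂ, (∑ X, h X) *ᵥ ψ = E0 • ψ → ∃ c : ℂ, ψ = c • Ω) :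
    (bmat A Ω).rank ≤ q ^ (A ∩ B).card := by
  classical
  set S1 : Finset (Finset Λ) := Finset.univ.filter fun X => X ⊆ A with hS1
  set S0 : Finset (Finset Λ) := Finset.univ.filter fun X => ¬ X ⊆ A with hS0
  set S2 : Finset (Finset Λ) := S0.filter fun X => X ⊆ Aᶜ with hS2
  set S3 : Finset (Finset Λ) := S0.filter fun X => ¬ X ⊆ Aᶜ with hS3
  have hsplit : ∑ X, h X = ∑ X ∈ S1, h X + ∑ X ∈ S2, h X + ∑ X ∈ S3, h X := by
    rw [add_assoc, hS2, hS3, Finset.sum_filter_add_sum_filter_not, hS1, hS0,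
      Finset.sum_filter_add_sum_filter_not]
  rw [hsplit] at hE hs
  have s1 : SupportedOn A (∑ X ∈ S1, h X) :=
    SupportedOn.sum _ _ fun X hX => (hsupp X).mono (Finset.mem_filter.1 hX).2
  have s2 : SupportedOn Aᶜ (∑ X ∈ S2, h X) :=
    SupportedOn.sum _ _ fun X hX => (hsupp X).mono (Finset.mem_filter.1 hX).2
  have c3 : ∀ S : Finset (Finset Λ), Commute (∑ X ∈ S, h X) (∑ X ∈ S3, h X) := by
    intro S
    refine Commute.sum_left _ _ _ fun Y _ => Commute.sum_right _ _ _ fun X hX => ?_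
    exact (hcomm X Y (Finset.mem_filter.1 (Finset.mem_filter.1 hX).1).2
      (Finset.mem_filter.1 hX).2).symm
  refine rank_le_of_three A B _ _ _ (herm_sum _ _ fun X _ => hherm X)
    (herm_sum _ _ fun X _ => hherm X) s1 s2 ?_ (commute_of_disjoint A _ _ s1 s2)
    (c3 S1) (c3 S2) Ω hΩ E0 hE hs
  refine SupportedOn.sum _ _ fun X hX => ?_
  have h2 := (Finset.mem_filter.1 hX).2
  have h1 := (Finset.mem_filter.1 (Finset.mem_filter.1 hX).1).2
  by_cases h0 : h X = 0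
  · rw [h0]
    exact SupportedOn.zero B
  · exact (hsupp X).mono (hB X h1 h2 h0)

theorem entropy_le_of_cut [NeZero q] (h : Finset Λ → Op Λ q)
    (hherm : ∀ X, (h X).IsHermitian) (hsupp : ∀ X, SupportedOn X (h X))
    (A B : Finset Λ)
    (hcomm : ∀ X Y, ¬ X ⊆ A → ¬ X ⊆ Aᶜ → Commute (h X) (h Y))
    (hB : ∀ X, ¬ X ⊆ A → ¬ X ⊆ Aᶜ → h X ≠ 0 → X ⊆ B)
    (Ω : Conf Λ q → ℂ) (hΩ : ∑ τ, ‖Ω τ‖ ^ 2 = 1) (E0 : ℂ) (hE : (∑ X, h X) *ᵥ Ω = E0 • Ω)
    (hs : ∀ ψ : Conf Λ q → ℂ, (∑ X, h X) *ᵥ ψ = E0 • ψ → ∃ c : ℂ, ψ = c • Ω) :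
    entropyOf (bmat A Ω) ≤ ((A ∩ B).card : ℝ) * Real.log q := by
  have hne : Ω ≠ 0 := by
    intro h0
    rw [h0] at hΩ
    simp at hΩ
  have hr := rank_le_of_cut h hherm hsupp A B hcomm hB Ω hne E0 hE hs
  have hM : ∑ a, ∑ b, ‖bmat A Ω a b‖ ^ 2 = 1 := by
    rw [← hΩ, sum_glue_real A]
    rfl
  have := entropyOf_le (bmat A Ω) hM _ hr
  rwa [Nat.cast_pow, Real.log_pow] at this

end Vale.Agent.Lib.P356b
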