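import Mathlib

/-!
# P356: the square box, its edge boundary, and thick boundaries
-/

namespace Vale.Agent.Lib.P356b

/-- the sites of the box `{1, …, L}²` (coordinates shifted to `0, …, L - 1`) -/
abbrev Site (L : ℕ) : Type := Fin L × Fin L

variable {L : ℕ}

/-- the `ℓ¹` distance -/
def dist1 (x y : Site L) : ℕ := Nat.dist x.1 y.1 + Nat.dist x.2 y.2

/-- the edge boundary of `A`: each pair `{x, y}` with `x ∈ A`, `y ∉ A`, `|x - y|₁ = 1` is listed
once, as `(x, y)` -/
def edgeBoundary (A : Finset (Site L)) : Finset (Site L × Site L) :=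
  Finset.univ.filter fun e => e.1 ∈ A ∧ e.2 ∉ A ∧ dist1 e.1 e.2 = 1

theorem dist1_self (x : Site L) : dist1 x x = 0 := by simp [dist1]

theorem eq_of_dist1 (x y : Site L) (h : dist1 x y = 0) : x = y := by
  unfold dist1 Nat.dist at h
  apply Prod.ext <;> apply Fin.ext <;> omega

theorem dist1_triangle (x y z : Site L) : dist1 x z ≤ dist1 x y + dist1 y z := by
  unfold dist1 Nat.dist
  omega

/-- a neighbour one step closer -/
theorem exists_step (x y : Site L) (h : dist1 x y ≠ 0) :
    ∃ x' : Site L, dist1 x x' = 1 ∧ dist1 x' y + 1 = dist1 x y := by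
  obtain ⟨⟨a, ha⟩, ⟨b, hb⟩⟩ := x
  obtain ⟨⟨c, hc⟩, ⟨d, hd⟩⟩ := y
  unfold dist1 Nat.dist at h
  simp only at h
  by_cases h1 : a < c
  · refine ⟨(⟨a + 1, by omega⟩, ⟨b, hb⟩), ?_, ?_⟩ <;> unfold dist1 Nat.dist <;> simp only <;> omega
  by_cases h2 : c < a
  · refine ⟨(⟨a - 1, by omega⟩, ⟨b, hb⟩), ?_, ?_⟩ <;> unfold dist1 Nat.dist <;> simp only <;> omega
  by_cases h3 : b < d
  · refine ⟨(⟨a, ha⟩, ⟨b + 1, by omega⟩), ?_, ?_⟩ <;> unfold dist1 Nat.dist <;> simp only <;> omega
  · refine ⟨(⟨a, ha⟩, ⟨b - 1, by omega⟩), ?_, ?_⟩ <;> unfold dist1 Nat.dist <;> simp only <;> omega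

theorem exists_edge (A : Finset (Site L)) (n : ℕ) :
    ∀ x ∈ A, ∀ y, y ∉ A → dist1 x y ≤ n → ∃ e ∈ edgeBoundary A, dist1 x e.1 ≤ n := by
  induction n with
  | zero =>
    intro x hx y hy hd
    have := eq_of_dist1 x y (by omega)
    rw [this] at hx
    exact absurd hx hy
  | succ n ih =>
    intro x hx y hy hd
    have h0 : dist1 x y ≠ 0 := by
      intro h0
      have := eq_of_dist1 x y h0
      rw [this] at hx
      exact absurd hx hy
    obtain ⟨x', h1, h2⟩ := exists_step x y h0
    by_cases hx' : x' ∈ A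
    · obtain ⟨e, he, hde⟩ := ih x' hx' y hy (by omega)
      refine ⟨e, he, ?_⟩
      have := dist1_triangle x x' e.1
      omega
    · refine ⟨(x, x'), ?_, ?_⟩
      · unfold edgeBoundary
        rw [Finset.mem_filter]
        exact ⟨Finset.mem_univ _, hx, hx', h1⟩
      · rw [dist1_self]
        omega

theorem card_ball_le (u : Site L) (R : ℕ) :
    (Finset.univ.filter fun x : Site L => dist1 x u ≤ R).card ≤ (2 * R + 1) ^ 2 := by
  have hc : ((Finset.range (2 * R + 1)) ×ˢ (Finset.range (2 * R + 1))).card = (2 * R + 1) ^ 2 := by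
    rw [Finset.card_product, Finset.card_range, sq]
  rw [← hc]
  refine Finset.card_le_card_of_injOn
    (fun x => ((x.1 : ℕ) + R - (u.1 : ℕ), (x.2 : ℕ) + R - (u.2 : ℕ))) ?_ ?_
  · intro x hx
    have hx' : dist1 x u ≤ R := by simpa using hx
    unfold dist1 Nat.dist at hx'
    simp only [Finset.coe_product, Finset.coe_range, Set.mem_prod, Set.mem_Iio]
    constructor <;> omega
  · intro x hx y hy hxy
    have hx' : dist1 x u ≤ R := by simpa using hx
    have hy' : dist1 y u ≤ R := by simpa using hy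
    unfold dist1 Nat.dist at hx' hy'
    simp only [Prod.mk.injEq] at hxy
    apply Prod.ext <;> apply Fin.ext <;> omega

/-- the sites of `A` within distance `R` of the complement -/
def thick (A : Finset (Site L)) (R : ℕ) : Finset (Site L) :=
  A.filter fun x => ∃ y, y ∉ A ∧ dist1 x y ≤ R

theorem card_thick_le (A : Finset (Site L)) (R : ℕ) :
    (thick A R).card ≤ (edgeBoundary A).card * (2 * R + 1) ^ 2 := by
  classical
  have hsub : thick A R ⊆ (edgeBoundary A).biUnion
      fun e => Finset.univ.filter fun x : Site L => dist1 x e.1 ≤ R := by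
    intro x hx
    unfold thick at hx
    rw [Finset.mem_filter] at hx
    obtain ⟨hxA, y, hy, hd⟩ := hx
    obtain ⟨e, he, hde⟩ := exists_edge A R x hxA y hy hd
    rw [Finset.mem_biUnion]
    exact ⟨e, he, by simpa using hde⟩
  refine (Finset.card_le_card hsub).trans ?_
  exact Finset.card_biUnion_le_card_mul _ _ _ fun e _ => card_ball_le e.1 R

end Vale.Agent.Lib.P356b
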