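import Vale.Agent.Lib.P356b.Sector

/-!
# P356: the Schmidt rank of a simple eigenvector of a commuting Hamiltonian
-/

namespace Vale.Agent.Lib.P356b

open Matrix Polynomial
open scoped ComplexOrder

set_option linter.unusedSectionVars false

section LinAlg

variable {n : Type*} [Fintype n] [DecidableEq n]

/-- the eigenspace, as a submodule -/
def eigSub (T : Matrix n n ℂ) (c : ℂ) : Submodule ℂ (n → ℂ) where
  carrier := {w | T *ᵥ w = c • w}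
  add_mem' := by
    intro a b ha hb
    simp only [Set.mem_ofPred_eq] at *
    rw [Matrix.mulVec_add, ha, hb, smul_add]
  zero_mem' := by simp
  smul_mem' := by
    intro t a ha
    simp only [Set.mem_ofPred_eq] at *
    rw [Matrix.mulVec_smul, ha, smul_comm]

theorem mem_eigSub (T : Matrix n n ℂ) (c : ℂ) (w : n → ℂ) : w ∈ eigSub T c ↔ T *ᵥ w = c • w :=
  Iff.rfl

theorem eigSub_invariant (S T : Matrix n n ℂ) (hST : Commute S T) (c : ℂ) :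
    ∀ w ∈ eigSub T c, S *ᵥ w ∈ eigSub T c := by
  intro w hw
  rw [mem_eigSub] at *
  rw [Matrix.mulVec_mulVec, ← hST.eq, ← Matrix.mulVec_mulVec, hw, Matrix.mulVec_smul]

theorem eigen_of_commute (H T : Matrix n n ℂ) (hHT : Commute T H) (Ω : n → ℂ) (E0 : ℂ)
    (hE : H *ᵥ Ω = E0 • Ω) (hs : ∀ ψ : n → ℂ, H *ᵥ ψ = E0 • ψ → ∃ c : ℂ, ψ = c • Ω) :
    ∃ c : ℂ, T *ᵥ Ω = c • Ω :=
  hs _ (eigSub_invariant T H hHT E0 Ω hE)

theorem eigen_real (T : Matrix n n ℂ) (hT : T.IsHermitian) (Ω : n → ℂ) (hΩ : Ω ≠ 0) (c : ℂ)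
    (h : T *ᵥ Ω = c • Ω) : ∃ a : ℝ, c = (a : ℂ) := by
  have h1 := herm_inner T hT Ω Ω
  rw [h, star_smul, smul_dotProduct, dotProduct_smul, smul_eq_mul, smul_eq_mul] at h1
  have hN : star Ω ⬝ᵥ Ω ≠ 0 := fun h0 => hΩ (dotProduct_star_self_eq_zero.1 h0)
  have h2 : star c = c := mul_right_cancel₀ hN h1
  obtain ⟨a, ha⟩ := Complex.conj_eq_iff_real.1 h2
  exact ⟨a, ha⟩

theorem dot_aeval (T : Matrix n n ℂ) (u : n → ℂ) (c : ℂ)
    (h : ∀ w : n → ℂ, u ⬝ᵥ (T *ᵥ w) = c * (u ⬝ᵥ w)) (g : ℂ[X]) :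
    ∀ w : n → ℂ, u ⬝ᵥ ((aeval T g) *ᵥ w) = g.eval c * (u ⬝ᵥ w) := by
  have hpow : ∀ k : ℕ, ∀ w : n → ℂ, u ⬝ᵥ ((T ^ k) *ᵥ w) = c ^ k * (u ⬝ᵥ w) := by
    intro k
    induction k with
    | zero => intro w; simp
    | succ k ih =>
      intro w
      rw [pow_succ', ← Matrix.mulVec_mulVec, h, ih, pow_succ', mul_assoc]
  induction g using Polynomial.induction_on' with
  | add p r hp hr =>
    intro w
    rw [map_add, Matrix.add_mulVec, dotProduct_add, hp, hr, eval_add, add_mul]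
  | monomial k a =>
    intro w
    rw [aeval_monomial, eval_monomial, Algebra.algebraMap_eq_smul_one, Matrix.smul_mul, one_mul,
      Matrix.smul_mulVec, dotProduct_smul, hpow, smul_eq_mul, mul_assoc]

theorem dot_herm (T : Matrix n n ℂ) (hT : T.IsHermitian) (Ω : n → ℂ) (a : ℝ)
    (h : T *ᵥ Ω = (a : ℂ) • Ω) (w : n → ℂ) :
    star Ω ⬝ᵥ (T *ᵥ w) = (a : ℂ) * (star Ω ⬝ᵥ w) := by
  rw [← herm_inner T hT, h, star_smul, smul_dotProduct, smul_eq_mul]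
  congr 1
  exact Complex.conj_ofReal a

/-- the filtering step: from a vector `χ` in the right eigenspace of `H3`, not orthogonal to `Ω`,
polynomials in `H1` and `H2` produce a nonzero multiple of `Ω` -/
theorem filter_to_eigen (H1 H2 H3 : Matrix n n ℂ) (h1 : H1.IsHermitian) (h2 : H2.IsHermitian)
    (c12 : Commute H1 H2) (c13 : Commute H1 H3) (c23 : Commute H2 H3)
    (Ω : n → ℂ) (hΩ : Ω ≠ 0) (E0 : ℂ) (hE : (H1 + H2 + H3) *ᵥ Ω = E0 • Ω)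
    (hs : ∀ ψ : n → ℂ, (H1 + H2 + H3) *ᵥ ψ = E0 • ψ → ∃ c : ℂ, ψ = c • Ω) :
    ∃ c3 : ℂ, H3 *ᵥ Ω = c3 • Ω ∧ ∃ g1 g2 : ℂ[X], ∀ χ : n → ℂ, H3 *ᵥ χ = c3 • χ →
      star Ω ⬝ᵥ χ ≠ 0 → ∃ c : ℂ, c ≠ 0 ∧ (aeval H1 g1) *ᵥ ((aeval H2 g2) *ᵥ χ) = c • Ω := by
  have k1 : Commute H1 (H1 + H2 + H3) := ((Commute.refl H1).add_right c12).add_right c13
  have k2 : Commute H2 (H1 + H2 + H3) := (c12.symm.add_right (Commute.refl H2)).add_right c23
  have k3 : Commute H3 (H1 + H2 + H3) := (c13.symm.add_right c23.symm).add_right (Commute.refl H3)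
  obtain ⟨e1, he1⟩ := eigen_of_commute _ H1 k1 Ω E0 hE hs
  obtain ⟨e2, he2⟩ := eigen_of_commute _ H2 k2 Ω E0 hE hs
  obtain ⟨e3, he3⟩ := eigen_of_commute _ H3 k3 Ω E0 hE hs
  obtain ⟨a1, rfl⟩ := eigen_real H1 h1 Ω hΩ e1 he1
  obtain ⟨a2, rfl⟩ := eigen_real H2 h2 Ω hΩ e2 he2
  have hsum : E0 = (a1 : ℂ) + (a2 : ℂ) + e3 := by
    have h0 : (E0 - ((a1 : ℂ) + (a2 : ℂ) + e3)) • Ω = 0 := by
      rw [sub_smul, ← hE, Matrix.add_mulVec, Matrix.add_mulVec, he1, he2, he3, add_smul, add_smul,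
        sub_self]
    rcases smul_eq_zero.1 h0 with h | h
    · exact sub_eq_zero.1 h
    · exact absurd h hΩ
  obtain ⟨g1, hg1, hp1⟩ := exists_poly H1 h1 a1
  obtain ⟨g2, hg2, hp2⟩ := exists_poly H2 h2 a2
  refine ⟨e3, he3, g1, g2, fun χ hχ hne => ?_⟩
  set w2 := (aeval H2 g2) *ᵥ χ with hw2
  set v := (aeval H1 g1) *ᵥ w2 with hv
  have w2_2 : H2 *ᵥ w2 = (a2 : ℂ) • w2 := hp2 χ
  have w2_3 : H3 *ᵥ w2 = e3 • w2 :=
    aeval_mem H2 (eigSub H3 e3) (eigSub_invariant H2 H3 c23 e3) g2 χ hχ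
  have v_1 : H1 *ᵥ v = (a1 : ℂ) • v := hp1 w2
  have v_2 : H2 *ᵥ v = (a2 : ℂ) • v :=
    aeval_mem H1 (eigSub H2 a2) (eigSub_invariant H1 H2 c12 a2) g1 w2 w2_2
  have v_3 : H3 *ᵥ v = e3 • v :=
    aeval_mem H1 (eigSub H3 e3) (eigSub_invariant H1 H3 c13 e3) g1 w2 w2_3
  have hv' : (H1 + H2 + H3) *ᵥ v = E0 • v := by
    rw [Matrix.add_mulVec, Matrix.add_mulVec, v_1, v_2, v_3, hsum, add_smul, add_smul]
  obtain ⟨c, hc⟩ := hs v hv'
  refine ⟨c, ?_, hc⟩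
  intro hc0
  have hdot : star Ω ⬝ᵥ v = star Ω ⬝ᵥ χ := by
    rw [hv, dot_aeval H1 (star Ω) a1 (dot_herm H1 h1 Ω a1 he1) g1, hg1, one_mul, hw2,
      dot_aeval H2 (star Ω) a2 (dot_herm H2 h2 Ω a2 he2) g2, hg2, one_mul]
  rw [hc, hc0, zero_smul, dotProduct_zero] at hdot
  exact hne hdot.symm

end LinAlg

variable {Λ : Type} [Fintype Λ] [DecidableEq Λ] {q : ℕ}

theorem sector_smul (B : Finset Λ) (σ : Conf Λ q) (c : ℂ) (ψ : Conf Λ q → ℂ) :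
    sector B σ (c • ψ) = c • sector B σ ψ := by
  funext τ
  unfold sector
  by_cases h : ∀ x, x ∉ B → τ x = σ x
  · simp only [if_pos h, Pi.smul_apply]
  · simp only [if_neg h, Pi.smul_apply, smul_zero]

theorem sector_dot (B : Finset Λ) (σ : Conf Λ q) (ψ : Conf Λ q → ℂ) :
    star ψ ⬝ᵥ sector B σ ψ = star (sector B σ ψ) ⬝ᵥ sector B σ ψ := by
  simp only [dotProduct]
  refine Finset.sum_congr rfl fun τ _ => ?_
  simp only [Pi.star_apply]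
  unfold sector
  by_cases h : ∀ x, x ∉ B → τ x = σ x
  · simp only [if_pos h]
  · simp only [if_neg h, mul_zero]

theorem sector_dot_ne (B : Finset Λ) (σ : Conf Λ q) (ψ : Conf Λ q → ℂ) (h : ψ σ ≠ 0) :
    star ψ ⬝ᵥ sector B σ ψ ≠ 0 := by
  rw [sector_dot]
  intro h0
  have h1 := dotProduct_star_self_eq_zero.1 h0
  have h2 : sector B σ ψ σ = ψ σ := by
    unfold sector
    exact if_pos fun _ _ => rfl
  rw [h1] at h2
  exact h h2.symm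

theorem rank_smul_le {m k : Type*} [Fintype m] [Fintype k] [DecidableEq m] (c : ℂ)
    (M : Matrix m k ℂ) : (c • M).rank ≤ M.rank := by
  have : c • M = (c • (1 : Matrix m m ℂ)) * M := by rw [Matrix.smul_mul, Matrix.one_mul]
  rw [this]
  exact Matrix.rank_mul_le_right _ _

/-- three commuting pieces: one on `A`, one on the complement, one on `B` -/
theorem rank_le_of_three [NeZero q] (A B : Finset Λ) (H1 H2 H3 : Op Λ q)
    (h1 : H1.IsHermitian) (h2 : H2.IsHermitian)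
    (s1 : SupportedOn A H1) (s2 : SupportedOn Aᶜ H2) (s3 : SupportedOn B H3)
    (c12 : Commute H1 H2) (c13 : Commute H1 H3) (c23 : Commute H2 H3)
    (Ω : Conf Λ q → ℂ) (hΩ : Ω ≠ 0) (E0 : ℂ) (hE : (H1 + H2 + H3) *ᵥ Ω = E0 • Ω)
    (hs : ∀ ψ : Conf Λ q → ℂ, (H1 + H2 + H3) *ᵥ ψ = E0 • ψ → ∃ c : ℂ, ψ = c • Ω) :
    (bmat A Ω).rank ≤ q ^ (A ∩ B).card := by
  obtain ⟨c3, hc3, g1, g2, hfil⟩ := filter_to_eigen H1 H2 H3 h1 h2 c12 c13 c23 Ω hΩ E0 hE hs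
  obtain ⟨σ, hσ⟩ : ∃ σ, Ω σ ≠ 0 := by
    by_contra hcon
    push Not at hcon
    exact hΩ (funext hcon)
  have hχ : H3 *ᵥ sector B σ Ω = c3 • sector B σ Ω := by
    rw [sector_comm B H3 s3, hc3, sector_smul]
  obtain ⟨c, hc0, hc⟩ := hfil _ hχ (sector_dot_ne B σ Ω hσ)
  have hΩe : Ω = c⁻¹ • ((aeval H1 g1) *ᵥ ((aeval H2 g2) *ᵥ sector B σ Ω)) := by
    rw [hc, smul_smul, inv_mul_cancel₀ hc0, one_smul]
  calc (bmat A Ω).rank
      = (c⁻¹ • bmat A ((aeval H1 g1) *ᵥ ((aeval H2 g2) *ᵥ sector B σ Ω))).rank := by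
        rw [← bmat_smul, ← hΩe]
    _ ≤ (bmat A ((aeval H1 g1) *ᵥ ((aeval H2 g2) *ᵥ sector B σ Ω))).rank := rank_smul_le _ _
    _ ≤ (bmat A ((aeval H2 g2) *ᵥ sector B σ Ω)).rank := rank_bmat_aeval_left A H1 s1 g1 _
    _ ≤ (bmat A (sector B σ Ω)).rank := rank_bmat_aeval_right A H2 s2 g2 _
    _ ≤ q ^ (A ∩ B).card := rank_sector A B σ Ω

end Vale.Agent.Lib.P356b
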