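import Mathlib

/-!
# P356: polynomials in a Hermitian matrix (spectral projections without spectral theory)
-/

namespace Vale.Agent.Lib.P356b

open Matrix Polynomial
open scoped ComplexOrder

set_option linter.unusedSectionVars false

variable {n : Type*} [Fintype n] [DecidableEq n]

theorem herm_inner (S : Matrix n n ℂ) (hS : S.IsHermitian) (x y : n → ℂ) :
    star (S *ᵥ x) ⬝ᵥ y = star x ⬝ᵥ (S *ᵥ y) := by
  rw [Matrix.star_mulVec, hS.eq, Matrix.dotProduct_mulVec]

/-- for a Hermitian matrix the kernel of a power is the kernel -/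
theorem herm_pow_ker (S : Matrix n n ℂ) (hS : S.IsHermitian) (k : ℕ) (w : n → ℂ)
    (h : (S ^ (k + 1)) *ᵥ w = 0) : S *ᵥ w = 0 := by
  induction k with
  | zero => simpa using h
  | succ k ih =>
    apply ih
    have h1 : star ((S ^ (k + 1)) *ᵥ w) ⬝ᵥ ((S ^ (k + 1)) *ᵥ w) = 0 := by
      have e1 : (S ^ (k + 1)) *ᵥ w = S *ᵥ ((S ^ k) *ᵥ w) := by
        rw [Matrix.mulVec_mulVec, ← pow_succ']
      have e2 : S *ᵥ ((S ^ (k + 1)) *ᵥ w) = (S ^ (k + 1 + 1)) *ᵥ w := by
        rw [Matrix.mulVec_mulVec, ← pow_succ']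
      have e3 : star ((S ^ (k + 1)) *ᵥ w) ⬝ᵥ ((S ^ (k + 1)) *ᵥ w)
          = star (S *ᵥ ((S ^ k) *ᵥ w)) ⬝ᵥ ((S ^ (k + 1)) *ᵥ w) := by rw [← e1]
      rw [e3, herm_inner S hS, e2, h, dotProduct_zero]
    exact dotProduct_star_self_eq_zero.1 h1

theorem aeval_mulVec_eigen (T : Matrix n n ℂ) (v : n → ℂ) (c : ℂ) (h : T *ᵥ v = c • v)
    (g : ℂ[X]) : (aeval T g) *ᵥ v = g.eval c • v := by
  have hpow : ∀ k : ℕ, (T ^ k) *ᵥ v = c ^ k • v := by
    intro k
    induction k with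
    | zero => simp
    | succ k ih =>
      rw [pow_succ, ← Matrix.mulVec_mulVec, h, Matrix.mulVec_smul, ih, smul_smul, pow_succ,
        mul_comm]
  induction g using Polynomial.induction_on' with
  | add p q hp hq => rw [map_add, Matrix.add_mulVec, hp, hq, eval_add, add_smul]
  | monomial k a =>
    rw [aeval_monomial, eval_monomial, Algebra.algebraMap_eq_smul_one, Matrix.smul_mul, one_mul,
      Matrix.smul_mulVec, hpow, smul_smul]

theorem aeval_mem (T : Matrix n n ℂ) (W : Submodule ℂ (n → ℂ)) (hW : ∀ w ∈ W, T *ᵥ w ∈ W)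
    (g : ℂ[X]) : ∀ w ∈ W, (aeval T g) *ᵥ w ∈ W := by
  have hpow : ∀ k : ℕ, ∀ w ∈ W, (T ^ k) *ᵥ w ∈ W := by
    intro k
    induction k with
    | zero => intro w hw; simpa using hw
    | succ k ih =>
      intro w hw
      rw [pow_succ, ← Matrix.mulVec_mulVec]
      exact ih _ (hW w hw)
  induction g using Polynomial.induction_on' with
  | add p q hp hq =>
    intro w hw
    rw [map_add, Matrix.add_mulVec]
    exact W.add_mem (hp w hw) (hq w hw)
  | monomial k a =>
    intro w hw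
    rw [aeval_monomial, Algebra.algebraMap_eq_smul_one, Matrix.smul_mul, one_mul,
      Matrix.smul_mulVec]
    exact W.smul_mem a (hpow k w hw)

/-- a polynomial `g` with `g a = 1` such that `g T` maps into the eigenspace of `T` at `a` -/
theorem exists_poly (T : Matrix n n ℂ) (hT : T.IsHermitian) (a : ℝ) :
    ∃ g : ℂ[X], g.eval (a : ℂ) = 1 ∧
      ∀ w : n → ℂ, T *ᵥ ((aeval T g) *ᵥ w) = (a : ℂ) • ((aeval T g) *ᵥ w) := by
  have hp0 : T.charpoly ≠ 0 := (Matrix.charpoly_monic T).ne_zero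
  obtain ⟨g0, hp, hnd⟩ := exists_eq_pow_rootMultiplicity_mul_and_not_dvd T.charpoly hp0 (a : ℂ)
  set k := rootMultiplicity (a : ℂ) T.charpoly with hk
  have hg0 : g0.eval (a : ℂ) ≠ 0 := fun h => hnd (dvd_iff_isRoot.2 h)
  set S : Matrix n n ℂ := T - (a : ℂ) • 1 with hS
  have hSH : S.IsHermitian := by
    rw [hS]
    refine hT.sub ?_
    rw [Matrix.IsHermitian, Matrix.conjTranspose_smul, Matrix.conjTranspose_one]
    simp
  have hSe : aeval T (X - C (a : ℂ)) = S := by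
    rw [hS, map_sub, aeval_X, aeval_C, Algebra.algebraMap_eq_smul_one]
  have hzero : S ^ k * aeval T g0 = 0 := by
    rw [← hSe, ← map_pow, ← map_mul, ← hp]
    exact Matrix.aeval_self_charpoly T
  have hker : ∀ w : n → ℂ, S *ᵥ ((aeval T g0) *ᵥ w) = 0 := by
    intro w
    rcases Nat.eq_zero_or_pos k with h0 | hpos
    · rw [h0, pow_zero, one_mul] at hzero
      rw [hzero]
      simp
    · obtain ⟨k', hk'⟩ : ∃ k', k = k' + 1 := ⟨k - 1, by omega⟩
      apply herm_pow_ker S hSH k'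
      rw [← hk', Matrix.mulVec_mulVec, hzero, Matrix.zero_mulVec]
  refine ⟨C (g0.eval (a : ℂ))⁻¹ * g0, ?_, ?_⟩
  · rw [eval_mul, eval_C, inv_mul_cancel₀ hg0]
  · intro w
    have e : (aeval T (C (g0.eval (a : ℂ))⁻¹ * g0)) *ᵥ w
        = (g0.eval (a : ℂ))⁻¹ • ((aeval T g0) *ᵥ w) := by
      rw [map_mul, aeval_C, Algebra.algebraMap_eq_smul_one, Matrix.smul_mul, one_mul,
        Matrix.smul_mulVec]
    rw [e, Matrix.mulVec_smul]
    have h1 := hker w
    rw [hS, Matrix.sub_mulVec, Matrix.smul_mulVec, Matrix.one_mulVec, sub_eq_zero] at h1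
    rw [h1, smul_comm]

end Vale.Agent.Lib.P356b
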