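import Vale.Agent.Lib.P356b.Bipart

/-!
# P356: restriction of a vector to a sector
-/

namespace Vale.Agent.Lib.P356b

open Matrix Polynomial

set_option linter.unusedSectionVars false

variable {Λ : Type} [Fintype Λ] [DecidableEq Λ] {q : ℕ}

/-- the restriction of `ψ` to the configurations that agree with `σ` outside `B` -/
def sector (B : Finset Λ) (σ : Conf Λ q) (ψ : Conf Λ q → ℂ) : Conf Λ q → ℂ :=
  fun τ => if ∀ x, x ∉ B → τ x = σ x then ψ τ else 0

theorem sector_comm (B : Finset Λ) (O : Op Λ q) (hO : SupportedOn B O) (σ : Conf Λ q)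
    (ψ : Conf Λ q → ℂ) : O *ᵥ sector B σ ψ = sector B σ (O *ᵥ ψ) := by
  funext κ
  unfold sector
  by_cases hκ : ∀ x, x ∉ B → κ x = σ x
  · rw [if_pos hκ]
    simp only [Matrix.mulVec, dotProduct]
    refine Finset.sum_congr rfl fun τ _ => ?_
    by_cases hτ : ∀ x, x ∉ B → τ x = σ x
    · rw [if_pos hτ]
    · rw [if_neg hτ]
      push Not at hτ
      obtain ⟨x, hx, hne⟩ := hτ
      rw [hO.1 κ τ ⟨x, hx, by rw [hκ x hx]; exact fun h => hne h.symm⟩]
      simp
  · rw [if_neg hκ]
    simp only [Matrix.mulVec, dotProduct]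
    refine Finset.sum_eq_zero fun τ _ => ?_
    by_cases hτ : ∀ x, x ∉ B → τ x = σ x
    · push Not at hκ
      obtain ⟨x, hx, hne⟩ := hκ
      rw [hO.1 κ τ ⟨x, hx, by rw [hτ x hx]; exact hne⟩, zero_mul]
    · rw [if_neg hτ, mul_zero]

theorem rank_sector (A B : Finset Λ) (σ : Conf Λ q) (ψ : Conf Λ q → ℂ) :
    (bmat A (sector B σ ψ)).rank ≤ q ^ (A ∩ B).card := by
  classical
  set w : ({x // x ∈ A} → Fin q) → ℂ :=
    fun α => if ∀ x : {x // x ∈ A}, x.1 ∉ B → α x = σ x.1 then 1 else 0 with hw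
  have hmul : bmat A (sector B σ ψ) = Matrix.diagonal w * bmat A (sector B σ ψ) := by
    ext α β
    rw [Matrix.diagonal_mul, hw]
    by_cases hα : ∀ x : {x // x ∈ A}, x.1 ∉ B → α x = σ x.1
    · simp only [if_pos hα, one_mul]
    · simp only [if_neg hα, zero_mul]
      rw [bmat_apply]
      unfold sector
      rw [if_neg]
      intro hall
      apply hα
      intro x hx
      have := hall x.1 hx
      rwa [glue_mem A _ _ x.2] at this
  rw [hmul]
  refine (Matrix.rank_mul_le_left _ _).trans ?_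
  rw [Matrix.rank_diagonal]
  have hinj : Function.Injective
      (fun (α : {α : {x // x ∈ A} → Fin q // w α ≠ 0}) (y : {x // x ∈ A ∩ B}) =>
        α.1 ⟨y.1, (Finset.mem_inter.1 y.2).1⟩) := by
    intro α α' h
    apply Subtype.ext
    funext x
    have hα : ∀ x : {x // x ∈ A}, x.1 ∉ B → α.1 x = σ x.1 := by
      by_contra hc
      exact α.2 (if_neg hc)
    have hα' : ∀ x : {x // x ∈ A}, x.1 ∉ B → α'.1 x = σ x.1 := by
      by_contra hc
      exact α'.2 (if_neg hc)
    by_cases hx : x.1 ∈ B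
    · exact congrFun h ⟨x.1, Finset.mem_inter.2 ⟨x.2, hx⟩⟩
    · rw [hα x hx, hα' x hx]
  have h1 := Fintype.card_le_of_injective _ hinj
  have h2 : Fintype.card ({x // x ∈ A ∩ B} → Fin q) = q ^ (A ∩ B).card := by
    rw [Fintype.card_fun, Fintype.card_fin, Fintype.card_coe]
  rw [h2] at h1
  exact h1

end Vale.Agent.Lib.P356b
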